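import Crest.Prelude.Def_ProductShift
import Crest.Agent.H6.FK

/-! Abstract part of S0151: determinants of `T - z` for a quasinilpotent `T`. -/

set_option autoImplicit false

namespace Crest.Agent.H8.BM

open Crest.AnalysisR.ProductShift MeasureTheory Crest.Agent.H6.FK

theorem eq_of_sq {g : ℝ → ℝ} {K : ℝ}
    (h : ∀ s ∈ Set.Icc (0 : ℝ) 1, ∀ t ∈ Set.Icc (0 : ℝ) 1, g t ≤ g s + K * (t - s) ^ 2) :
    g 1 = g 0 := by
  have hK : 0 ≤ K := by
    have h1 := h 0 ⟨le_rfl, zero_le_one⟩ 1 ⟨zero_le_one, le_rfl⟩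
    have h2 := h 1 ⟨zero_le_one, le_rfl⟩ 0 ⟨le_rfl, zero_le_one⟩
    nlinarith
  have key : ∀ n : ℕ, 0 < n → |g 1 - g 0| ≤ K / n := by
    intro n hn
    have hn' : (0 : ℝ) < n := by exact_mod_cast hn
    have h1 : ∀ i : ℕ, i ≤ n → |g (i / n) - g 0| ≤ i * (K / n ^ 2) := by
      intro i
      induction i with
      | zero => simp
      | succ i ih =>
        intro hi
        have h2 := ih (by omega)
        have m : ∀ j : ℕ, j ≤ n → (j : ℝ) / n ∈ Set.Icc (0 : ℝ) 1 := fun j hj =>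
          ⟨by positivity, (div_le_one hn').2 (by exact_mod_cast hj)⟩
        have h3 := h _ (m i (by omega)) _ (m _ hi)
        have h4 := h _ (m _ hi) _ (m i (by omega))
        have e1 : K * ((((i + 1 : ℕ) : ℝ)) / n - i / n) ^ 2 = K / n ^ 2 := by
          push_cast; field_simp; ring
        have e2 : K * ((i : ℝ) / n - (((i + 1 : ℕ) : ℝ)) / n) ^ 2 = K / n ^ 2 := by
          push_cast; field_simp; ring
        rw [e1] at h3; rw [e2] at h4
        rw [abs_le] at h2 ⊢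
        push_cast at h3 h4 ⊢
        constructor <;> linarith [h2.1, h2.2]
    have h5 := h1 n le_rfl
    rw [div_self hn'.ne'] at h5
    refine h5.trans (le_of_eq ?_)
    field_simp
  by_contra hne
  have hp : 0 < |g 1 - g 0| := abs_pos.2 (sub_ne_zero.2 hne)
  obtain ⟨n, hn⟩ := exists_nat_gt (K / |g 1 - g 0|)
  have hn0 : (0 : ℝ) < n := lt_of_le_of_lt (by positivity) hn
  have := key n (by exact_mod_cast hn0)
  rw [div_lt_iff₀ hp] at hn
  rw [le_div_iff₀ hn0] at this
  linarith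

theorem L_one_sub {A : Type*} [CStarAlgebra A] [PartialOrder A] [StarOrderedRing A] (T : Tr A)
    (hc : Continuous T.τ) (hS : IsClosed (T.S : Set A)) {y : A} (hy : y ∈ T.S)
    (hs : Summable fun n : ℕ => ‖y ^ n‖) (h0 : ∀ k : ℕ, T.τ (y ^ (k + 1)) = 0) :
    IsUnit (1 - y) ∧ T.L (1 - y) = 0 := by
  set C := ∑' n : ℕ, ‖y ^ n‖ with hC
  have hb : ∀ s ∈ Set.Icc (0 : ℝ) 1, ∀ n : ℕ, ‖(s • y) ^ n‖ ≤ ‖y ^ n‖ := by
    intro s hs n
    rw [smul_pow, norm_smul, Real.norm_of_nonneg (pow_nonneg hs.1 n)]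
    exact mul_le_of_le_one_left (norm_nonneg _) (pow_le_one₀ hs.1 hs.2)
  have hsum : ∀ s ∈ Set.Icc (0 : ℝ) 1, Summable fun n : ℕ => (s • y) ^ n := fun s h =>
    Summable.of_norm_bounded hs (hb s h)
  let inv : ℝ → A := fun s => ∑' n : ℕ, (s • y) ^ n
  have i1 : ∀ s ∈ Set.Icc (0 : ℝ) 1, inv s * (1 - s • y) = 1 := fun s h =>
    (hsum s h).tsum_pow_mul_one_sub
  have i2 : ∀ s ∈ Set.Icc (0 : ℝ) 1, (1 - s • y) * inv s = 1 := fun s h =>
    (hsum s h).one_sub_mul_tsum_pow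
  have u1 : ∀ s ∈ Set.Icc (0 : ℝ) 1, IsUnit (1 - s • y) := fun s h =>
    ⟨⟨_, _, i2 s h, i1 s h⟩, rfl⟩
  have u2 : ∀ s ∈ Set.Icc (0 : ℝ) 1, IsUnit (inv s) := fun s h =>
    ⟨⟨_, _, i1 s h, i2 s h⟩, rfl⟩
  have m1 : ∀ s : ℝ, 1 - s • y ∈ T.S := fun s => sub_mem (one_mem _) (SMulMemClass.smul_mem s hy)
  have m2 : ∀ s ∈ Set.Icc (0 : ℝ) 1, inv s ∈ T.S := fun s h =>
    hS.mem_of_tendsto (hsum s h).hasSum (Filter.Eventually.of_forall fun F =>
      sum_mem fun n _ => pow_mem (SMulMemClass.smul_mem s hy) n)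
  have n2 : ∀ s ∈ Set.Icc (0 : ℝ) 1, ‖inv s‖ ≤ C := fun s h =>
    tsum_of_norm_bounded hs.hasSum (hb s h)
  have t0 : ∀ s ∈ Set.Icc (0 : ℝ) 1, T.τ (y * inv s) = 0 := by
    intro s h
    have h1 := (((hsum s h).hasSum.mul_left y).map T.τ hc)
    have h2 : (T.τ ∘ fun n : ℕ => y * (s • y) ^ n) = fun _ => 0 := by
      funext n
      simp only [Function.comp]
      rw [smul_pow, mul_smul_comm, ← pow_succ', map_smul, h0, smul_zero]
    rw [h2] at h1
    exact h1.unique hasSum_zero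
  have h1 := T.pos _ zero_le_one
  have key : (fun s : ℝ => T.L (1 - s • y)) 1 = (fun s : ℝ => T.L (1 - s • y)) 0 := by
    refine eq_of_sq (g := fun s : ℝ => T.L (1 - s • y)) (K := (‖y‖ * C) ^ 2 * T.τ 1)
      fun s hs t ht => ?_
    set w := y * inv s with hw
    have e1 : 1 - t • y = (1 - (t - s) • w) * (1 - s • y) := by
      rw [sub_mul, one_mul, smul_mul_assoc, hw, mul_assoc, i1 s hs, mul_one, sub_smul]; abel
    have e2 : 1 - (t - s) • w = (1 - t • y) * inv s := by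
      rw [e1, mul_assoc, i2 s hs, mul_one]
    have hm : 1 - (t - s) • w ∈ T.S := e2 ▸ mul_mem (m1 t) (m2 s hs)
    have hu : IsUnit (1 - (t - s) • w) := e2 ▸ (u1 t ht).mul (u2 s hs)
    have h2 := (T.bd_of_mem hm hu).2.2 _ (m1 s) (u1 s hs)
    rw [← e1] at h2
    refine h2.trans (add_le_add le_rfl ?_)
    have h3 : T.τ (star w * w) ≤ (‖y‖ * C) ^ 2 * T.τ 1 := by
      have h4 := T.pos _ (sub_nonneg.2 (CStarAlgebra.star_mul_le_algebraMap_norm_sq (a := w)))
      rw [map_sub, Algebra.algebraMap_eq_smul_one, map_smul, smul_eq_mul] at h4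
      have h5 : ‖w‖ ≤ ‖y‖ * C := (norm_mul_le _ _).trans
        (mul_le_mul_of_nonneg_left (n2 s hs) (norm_nonneg _))
      have h6 : ‖w‖ ^ 2 ≤ (‖y‖ * C) ^ 2 := pow_le_pow_left₀ (norm_nonneg _) h5 2
      nlinarith
    have h7 : T.τ w = 0 := t0 s hs
    simp only [star_sub, star_one, star_smul, star_trivial, sub_mul, mul_sub, one_mul, mul_one,
      smul_mul_smul_comm, map_sub, map_smul, T.st, smul_eq_mul, h7]
    nlinarith [sq_nonneg (t - s)]
  refine ⟨by simpa using u1 1 ⟨zero_le_one, le_rfl⟩, ?_⟩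
  simpa [Tr.L] using key

variable {H : Type*} [NormedAddCommGroup H] [InnerProductSpace ℂ H] [CompleteSpace H]

/-- the real part of the vector state -/
noncomputable def st (ξ : H) : (H →L[ℂ] H) →L[ℝ] ℝ :=
  Complex.reCLM.comp (((innerSL ℂ ξ).comp (ContinuousLinearMap.apply ℂ H ξ)).restrictScalars ℝ)

omit [CompleteSpace H] in
theorem st_apply (ξ : H) (a : H →L[ℂ] H) : st ξ a = (inner ℂ ξ (a ξ)).re := rfl

theorem st_mono (ξ : H) {a b : H →L[ℂ] H} (h : a ≤ b) : st ξ a ≤ st ξ b := by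
  rw [← sub_nonneg, ← map_sub]
  exact ((ContinuousLinearMap.nonneg_iff_isPositive _).1 (sub_nonneg.2 h)).re_inner_nonneg_right _

omit [CompleteSpace H] in
theorem st_alg {ξ : H} (hξ : ‖ξ‖ = 1) (r : ℝ) : st ξ (algebraMap ℝ _ r) = r := by
  rw [Algebra.algebraMap_eq_smul_one, map_smul, st_apply]
  simp [hξ]

theorem tr_elem (ξ : H) (T : H →L[ℂ] H)
    (htr : ∀ a ∈ Submonoid.closure ({T, star T} : Set (H →L[ℂ] H)),
      ∀ b ∈ Submonoid.closure ({T, star T} : Set (H →L[ℂ] H)),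
      inner ℂ ξ ((a * b) ξ) = inner ℂ ξ ((b * a) ξ)) :
    ∀ a ∈ StarAlgebra.elemental ℂ T, ∀ b ∈ StarAlgebra.elemental ℂ T,
      inner ℂ ξ ((a * b) ξ) = inner ℂ ξ ((b * a) ξ) := by
  let φ : (H →L[ℂ] H) →L[ℂ] ℂ := (innerSL ℂ ξ).comp (ContinuousLinearMap.apply ℂ H ξ)
  have key : ∀ b : H →L[ℂ] H,
      (∀ a ∈ Submonoid.closure ({T, star T} : Set (H →L[ℂ] H)), φ (a * b) = φ (b * a)) →
      ∀ a ∈ StarAlgebra.elemental ℂ T, φ (a * b) = φ (b * a) := by
    intro b hb a ha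
    have hcl : IsClosed {a : H →L[ℂ] H | φ (a * b) = φ (b * a)} :=
      isClosed_eq (by fun_prop) (by fun_prop)
    refine closure_minimal (s := (StarAlgebra.adjoin ℂ {T} : Set (H →L[ℂ] H)))
      (fun x hx => ?_) hcl ha
    have hx' : x ∈ Submodule.span ℂ
        (Submonoid.closure ({T, star T} : Set (H →L[ℂ] H)) : Set (H →L[ℂ] H)) := by
      rw [← Algebra.adjoin_eq_span]
      rw [SetLike.mem_coe, ← StarSubalgebra.mem_toSubalgebra,
        StarAlgebra.adjoin_toSubalgebra, Set.star_singleton] at hx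
      exact hx
    clear hx
    change φ (x * b) = φ (b * x)
    induction hx' using Submodule.span_induction with
    | mem x hx => exact hb x hx
    | zero => simp
    | add x y _ _ h1 h2 => rw [add_mul, mul_add, map_add, map_add, h1, h2]
    | smul c x _ h1 => rw [smul_mul_assoc, mul_smul_comm, map_smul, map_smul, h1]
  intro a ha b hb
  exact key b (fun a' ha' => (key a' (fun b' hb' => htr b' hb' a' ha') b hb).symm) a ha

theorem log_add (P : H →L[ℂ] H) (hP : 0 ≤ P) {ε : ℝ} (hε : 0 < ε) :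
    cfc Real.log (P + (ε : ℂ) • (1 : H →L[ℂ] H)) = cfc (fun t => Real.log (t + ε)) P := by
  have hsa : IsSelfAdjoint P := hP.isSelfAdjoint
  have e : P + (ε : ℂ) • (1 : H →L[ℂ] H) = cfc (fun t : ℝ => t + ε) P := by
    rw [cfc_add_const _ _ P, cfc_id' ℝ P, Algebra.algebraMap_eq_smul_one]
    rfl
  have hg : ContinuousOn Real.log ((fun t : ℝ => t + ε) '' spectrum ℝ P) := by
    refine Real.continuousOn_log.mono ?_
    rintro _ ⟨t, ht, rfl⟩
    have := spectrum_nonneg_of_nonneg hP ht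
    exact (by positivity : 0 < t + ε).ne'
  rw [e, ← cfc_comp' Real.log (fun t : ℝ => t + ε) P hg]

theorem det_eq (ξ : H) (A : H →L[ℂ] H) : vectorDet ξ A = ⨅ ε : {r : ℝ // 0 < r},
    Real.exp (st ξ (cfc (fun t => Real.log (t + ε)) (star A * A)) / 2) := by
  unfold vectorDet
  refine iInf_congr fun ε => ?_
  rw [log_add _ (star_mul_self_nonneg A) ε.2]
  rfl

theorem det_unit {ξ : H} (hξ : ‖ξ‖ = 1) {A : H →L[ℂ] H} (hA : IsUnit A) :
    vectorDet ξ A = Real.exp (st ξ (cfc Real.log (star A * A)) / 2) := by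
  have hP : IsStrictlyPositive (star A * A) := ⟨star_mul_self_nonneg A, hA.star.mul hA⟩
  rw [det_eq]
  set P := star A * A
  have hsa : IsSelfAdjoint P := hP.nonneg.isSelfAdjoint
  have hK : ∀ t ∈ spectrum ℝ P, 0 < t := fun t ht => hP.spectrum_pos ht
  have c1 : ContinuousOn Real.log (spectrum ℝ P) :=
    Real.continuousOn_log.mono fun t ht => (hK t ht).ne'
  have c2 : ∀ ε : ℝ, 0 < ε → ContinuousOn (fun t => Real.log (t + ε)) (spectrum ℝ P) :=
    fun ε hε => ContinuousOn.log (by fun_prop) fun t ht => (add_pos (hK t ht) hε).ne'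
  obtain ⟨m, hm, hm'⟩ := (spectrum.isCompact (𝕜 := ℝ) P).exists_forall_le' continuousOn_id hK
  have : Nonempty {r : ℝ // 0 < r} := ⟨⟨1, one_pos⟩⟩
  refine le_antisymm ?_ (le_ciInf fun ε => ?_)
  · refine le_of_forall_pos_le_add fun δ hδ => ?_
    set E := Real.exp (st ξ (cfc Real.log P) / 2) with hE
    have hE0 : 0 < E := Real.exp_pos _
    have hε : 0 < 2 * m * Real.log (1 + δ / E) :=
      mul_pos (by positivity) (Real.log_pos (by have := div_pos hδ hE0; linarith))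
    refine (ciInf_le ⟨0, ?_⟩ ⟨_, hε⟩).trans ?_
    · rintro _ ⟨ε, rfl⟩; exact (Real.exp_pos _).le
    · have h1 : cfc (fun t => Real.log (t + 2 * m * Real.log (1 + δ / E))) P ≤
          cfc (fun t => Real.log t + 2 * Real.log (1 + δ / E)) P := by
        refine cfc_mono (fun t ht => ?_) (c2 _ hε) (c1.add continuousOn_const)
        have h2 := hK t ht
        have h3 : m ≤ t := hm' t ht
        have h4 := Real.log_le_sub_one_of_pos (div_pos (add_pos h2 hε) h2)
        rw [Real.log_div (add_pos h2 hε).ne' h2.ne', add_div, div_self h2.ne'] at h4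
        have h5 : 2 * m * Real.log (1 + δ / E) / t ≤ 2 * Real.log (1 + δ / E) := by
          rw [div_le_iff₀ h2]
          have : 0 < Real.log (1 + δ / E) := by
            by_contra hc
            nlinarith
          nlinarith
        linarith
      have h2 := st_mono ξ h1
      rw [cfc_add_const _ _ P c1, map_add, st_alg hξ] at h2
      refine (Real.exp_le_exp.2 (show _ ≤ st ξ (cfc Real.log P) / 2 + Real.log (1 + δ / E) by
        linarith)).trans (le_of_eq ?_)
      rw [Real.exp_add, Real.exp_log (by positivity), ← hE]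
      field_simp
  · refine Real.exp_le_exp.2 (div_le_div_of_nonneg_right (st_mono ξ ?_) zero_le_two)
    exact cfc_mono (fun t ht => Real.log_le_log (hK t ht) (by linarith [ε.2])) c1 (c2 _ ε.2)

theorem det_ne (ξ : H) (hξ : ‖ξ‖ = 1) (T : H →L[ℂ] H)
    (htr : ∀ a ∈ Submonoid.closure ({T, star T} : Set (H →L[ℂ] H)),
      ∀ b ∈ Submonoid.closure ({T, star T} : Set (H →L[ℂ] H)),
      inner ℂ ξ ((a * b) ξ) = inner ℂ ξ ((b * a) ξ))
    (h0 : ∀ k : ℕ, inner ℂ ξ ((T ^ (k + 1)) ξ) = 0)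
    (hq : ∀ r : ℝ, 0 < r → ∃ C : ℝ, ∀ n : ℕ, ‖T ^ n‖ ≤ C * r ^ n)
    {z : ℂ} (hz : z ≠ 0) : vectorDet ξ (T - z • (1 : H →L[ℂ] H)) = ‖z‖ := by
  have hcl : IsClosed (StarAlgebra.elemental ℂ T : Set (H →L[ℂ] H)) :=
    StarAlgebra.elemental.isClosed ℂ T
  let S : StarSubalgebra ℝ (H →L[ℂ] H) :=
    { carrier := StarAlgebra.elemental ℂ T
      mul_mem' := fun ha hb => mul_mem ha hb
      add_mem' := fun ha hb => add_mem ha hb
      algebraMap_mem' := fun r => by
        have : algebraMap ℝ (H →L[ℂ] H) r = algebraMap ℂ (H →L[ℂ] H) (r : ℂ) := rfl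
        rw [this]; exact algebraMap_mem _ _
      star_mem' := fun ha => star_mem ha }
  have hS : IsClosed (S : Set (H →L[ℂ] H)) := hcl
  let τ : Tr (H →L[ℂ] H) :=
    { S := S
      τ := (st ξ).toLinearMap
      cfc_mem := fun f a ha => cfc_mem f ha
      pos := fun x hx => by simpa using st_mono ξ hx
      tr := fun x hx y hy => congrArg Complex.re (tr_elem ξ T htr x hx y hy)
      st := fun x => by
        change (inner ℂ ξ ((star x) ξ)).re = (inner ℂ ξ (x ξ)).re
        rw [ContinuousLinearMap.star_eq_adjoint, ContinuousLinearMap.adjoint_inner_right,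
          ← inner_conj_symm, Complex.conj_re] }
  have hz0 : 0 < ‖z‖ := norm_pos_iff.2 hz
  have hy : z⁻¹ • T ∈ τ.S := SMulMemClass.smul_mem (S := StarSubalgebra ℂ (H →L[ℂ] H)) _
    (StarAlgebra.elemental.self_mem ℂ T)
  obtain ⟨C, hC⟩ := hq (‖z‖ / 2) (by positivity)
  have hs : Summable fun n : ℕ => ‖(z⁻¹ • T) ^ n‖ := by
    refine Summable.of_nonneg_of_le (fun _ => norm_nonneg _) (fun n => ?_)
      (summable_geometric_two.mul_left C)
    rw [smul_pow, norm_smul, norm_pow, norm_inv]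
    refine (mul_le_mul_of_nonneg_left (hC n) (by positivity)).trans (le_of_eq ?_)
    rw [mul_left_comm, ← mul_pow]
    congr 2
    field_simp
  obtain ⟨hu, hL⟩ := L_one_sub τ (st ξ).continuous hS hy hs fun k => by
    change (inner ℂ ξ (((z⁻¹ • T) ^ (k + 1)) ξ)).re = 0
    rw [smul_pow, smul_apply, inner_smul_right, h0, mul_zero, Complex.zero_re]
  set B := 1 - z⁻¹ • T with hB
  have e : T - z • (1 : H →L[ℂ] H) = (-z) • B := by
    rw [hB, smul_sub, smul_smul, neg_mul, mul_inv_cancel₀ hz]; simp [sub_eq_add_neg, add_comm]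
  have hu' : IsUnit ((-z) • B) := by
    rw [Algebra.smul_def]
    exact ((neg_ne_zero.2 hz).isUnit.map _).mul hu
  have hP : IsStrictlyPositive (star B * B) := ⟨star_mul_self_nonneg B, hu.star.mul hu⟩
  have hsa : IsSelfAdjoint (star B * B) := hP.nonneg.isSelfAdjoint
  have e2 : star ((-z) • B) * ((-z) • B) = (‖z‖ ^ 2 : ℝ) • (star B * B) := by
    rw [star_smul, smul_mul_smul_comm]
    have : star (-z) * -z = ((‖z‖ ^ 2 : ℝ) : ℂ) := by
      rw [star_neg, neg_mul_neg, Complex.star_def, Complex.conj_mul']; push_cast; rfl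
    rw [this]; rfl
  have e3 := CFC.log_smul (r := ‖z‖ ^ 2) (star B * B)
    (fun t ht => (hP.spectrum_pos ht).ne') (by positivity)
  rw [e, det_unit hξ hu', e2]
  change Real.exp (st ξ (CFC.log _) / 2) = _
  have hL' : st ξ (CFC.log (star B * B)) = 0 := hL
  rw [e3, map_add, st_alg hξ, hL', add_zero, Real.log_pow, Nat.cast_ofNat,
    mul_div_cancel_left₀ _ two_ne_zero, Real.exp_log hz0]

theorem det_zero {X : Type*} [MeasurableSpace X] (μ : Measure X) [IsProbabilityMeasure μ]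
    (f : X → ℝ) (hf : Measurable f) (h01 : ∀ x, 0 ≤ f x ∧ f x ≤ 1) (hpos : ∀ᵐ x ∂μ, 0 < f x)
    (hlog : ∫⁻ x, ENNReal.ofReal (-Real.log (f x)) ∂μ = ⊤) (ξ : H) (hξ : ‖ξ‖ = 1)
    (T : H →L[ℂ] H) (hT : ‖T‖ ≤ 1)
    (hm : ∀ n : ℕ, inner ℂ ξ (((star T * T) ^ n) ξ) = ((∫ x, (f x ^ 2) ^ n ∂μ : ℝ) : ℂ)) :
    vectorDet ξ (T - (0 : ℂ) • (1 : H →L[ℂ] H)) = ‖(0 : ℂ)‖ := by
  rw [zero_smul, sub_zero, norm_zero, det_eq]
  set P := star T * T with hP
  have hP0 : 0 ≤ P := star_mul_self_nonneg T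
  have hsa : IsSelfAdjoint P := hP0.isSelfAdjoint
  have hK : ∀ t ∈ spectrum ℝ P, t ∈ Set.Icc (0 : ℝ) 1 := by
    intro t ht
    refine ⟨spectrum_nonneg_of_nonneg hP0 ht, ?_⟩
    have h1 : P ≤ algebraMap ℝ _ 1 := by
      refine (CStarAlgebra.star_mul_le_algebraMap_norm_sq (a := T)).trans ?_
      rw [← sub_nonneg, ← map_sub, Algebra.algebraMap_eq_smul_one]
      exact smul_nonneg (sub_nonneg.2 (pow_le_one₀ (norm_nonneg _) hT)) zero_le_one
    exact (le_algebraMap_iff_spectrum_le hsa).1 h1 t ht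
  have hf2 : ∀ x, f x ^ 2 ∈ Set.Icc (0 : ℝ) 1 := fun x =>
    ⟨sq_nonneg _, pow_le_one₀ (h01 x).1 (h01 x).2⟩
  have hint : ∀ F : ℝ → ℝ, Continuous F → Integrable (fun x => F (f x ^ 2)) μ := by
    intro F hF
    obtain ⟨B, hB⟩ := (isCompact_Icc (a := (0 : ℝ)) (b := 1)).exists_bound_of_continuousOn
      hF.continuousOn
    exact Integrable.of_bound (hF.measurable.comp (hf.pow_const 2)).aestronglyMeasurable B
      (Filter.Eventually.of_forall fun x => hB _ (hf2 x))
  have hpoly : ∀ q : Polynomial ℝ, st ξ (cfc q.eval P) = ∫ x, q.eval (f x ^ 2) ∂μ := by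
    intro q
    rw [cfc_polynomial q P]
    induction q using Polynomial.induction_on' with
    | add p q hp hq =>
      simp only [map_add, hp, hq, Polynomial.eval_add]
      rw [integral_add (hint _ p.continuous) (hint _ q.continuous)]
    | monomial n a =>
      simp only [Polynomial.aeval_monomial, Polynomial.eval_monomial]
      rw [← Algebra.smul_def, map_smul, st_apply, hm, integral_const_mul]
      simp
  have : Nonempty {r : ℝ // 0 < r} := ⟨⟨1, one_pos⟩⟩
  refine le_antisymm (le_of_forall_pos_le_add fun δ hδ => ?_) (le_ciInf fun ε => (Real.exp_pos _).le)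
  rw [zero_add]
  -- a truncation with a large integral
  obtain ⟨M, hM⟩ : ∃ M : ℕ, ENNReal.ofReal (1 - Real.log δ) <
      ∫⁻ x, ENNReal.ofReal (min (-Real.log (f x)) M) ∂μ := by
    have h1 : ∫⁻ x, ⨆ M : ℕ, ENNReal.ofReal (min (-Real.log (f x)) M) ∂μ = ⊤ := by
      rw [← hlog]
      refine lintegral_congr fun x => le_antisymm (iSup_le fun M =>
        ENNReal.ofReal_le_ofReal (min_le_left _ _)) ?_
      obtain ⟨M, hM⟩ := exists_nat_ge (-Real.log (f x))
      exact le_iSup_of_le M (by rw [min_eq_left hM])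
    rw [lintegral_iSup (f := fun (M : ℕ) x => ENNReal.ofReal (min (-Real.log (f x)) M))
      (fun M => (hf.log.neg.min measurable_const).ennreal_ofReal)
      fun M N h x => ENNReal.ofReal_le_ofReal (min_le_min le_rfl (by exact_mod_cast h))] at h1
    exact lt_iSup_iff.1 (h1 ▸ ENNReal.ofReal_lt_top)
  have hg0 : ∀ x, 0 ≤ min (-Real.log (f x)) (M : ℝ) := fun x =>
    le_min (neg_nonneg.2 (Real.log_nonpos (h01 x).1 (h01 x).2)) (Nat.cast_nonneg M)
  have hgi : Integrable (fun x => min (-Real.log (f x)) (M : ℝ)) μ :=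
    Integrable.of_bound (hf.log.neg.min measurable_const).aestronglyMeasurable M (Filter.Eventually.of_forall fun x => by
      rw [Real.norm_of_nonneg (hg0 x)]; exact min_le_right _ _)
  rw [← ofReal_integral_eq_lintegral_ofReal hgi (Filter.Eventually.of_forall hg0)] at hM
  have hM' : 1 - Real.log δ ≤ ∫ x, min (-Real.log (f x)) (M : ℝ) ∂μ :=
    (ENNReal.ofReal_le_ofReal_iff (integral_nonneg hg0)).1 hM.le
  have hε : 0 < Real.exp (-2 * M) := Real.exp_pos _
  have c2 : ContinuousOn (fun t => Real.log (t + Real.exp (-2 * M))) (Set.Icc (0 : ℝ) 1) :=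
    ContinuousOn.log (by fun_prop) fun t ht => (add_pos_of_nonneg_of_pos ht.1 hε).ne'
  obtain ⟨q, hq⟩ := exists_polynomial_near_of_continuousOn 0 1 _ c2 (1 / 2) (by norm_num)
  refine (ciInf_le ⟨0, ?_⟩ ⟨_, hε⟩).trans ?_
  · rintro _ ⟨ε, rfl⟩; exact (Real.exp_pos _).le
  have h1 : cfc (fun t => Real.log (t + Real.exp (-2 * M))) P ≤
      cfc (fun t => q.eval t + 1 / 2) P :=
    cfc_mono (fun t ht => by linarith [(abs_lt.1 (hq t (hK t ht))).1]) (c2.mono hK)
      (q.continuous.continuousOn.add continuousOn_const)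
  have h2 := st_mono ξ h1
  rw [cfc_add_const _ _ P q.continuous.continuousOn, map_add, st_alg hξ] at h2
  have h3 : ∫ x, q.eval (f x ^ 2) ∂μ ≤
      ∫ x, (3 / 2 - 2 * min (-Real.log (f x)) (M : ℝ)) ∂μ := by
    refine integral_mono_ae (hint _ q.continuous) ((integrable_const _).sub (hgi.const_mul 2)) ?_
    filter_upwards [hpos] with x hx
    have h4 := (abs_lt.1 (hq _ (hf2 x))).2
    set m := min (-Real.log (f x)) (M : ℝ)
    have h5 : f x ^ 2 ≤ Real.exp (-2 * m) := by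
      rw [← Real.exp_log (pow_pos hx 2), Real.log_pow]
      exact Real.exp_le_exp.2 (by push_cast; linarith [min_le_left (-Real.log (f x)) (M : ℝ)])
    have h6 : Real.exp (-2 * M) ≤ Real.exp (-2 * m) :=
      Real.exp_le_exp.2 (by linarith [min_le_right (-Real.log (f x)) (M : ℝ)])
    have h7 : Real.log (f x ^ 2 + Real.exp (-2 * M)) ≤ 1 - 2 * m := by
      rw [Real.log_le_iff_le_exp (by positivity), show 1 - 2 * m = 1 + -2 * m by ring,
        Real.exp_add]
      have := Real.add_one_le_exp 1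
      nlinarith [Real.exp_pos (-2 * m)]
    linarith
  rw [integral_sub (integrable_const _) (hgi.const_mul 2), integral_const_mul, integral_const] at h3
  simp only [probReal_univ, smul_eq_mul, one_mul] at h3
  rw [← Real.exp_log hδ]
  refine Real.exp_le_exp.2 ?_
  have h8 := hpoly q
  change st ξ (cfc (fun t => q.eval t) P) = _ at h8
  change st ξ (cfc (fun t => Real.log (t + Real.exp (-2 * M))) P) / 2 ≤ _
  linarith

end Crest.Agent.H8.BM
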